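/-
Flat points of the unit sphere: basic facts, transfer under a sphere isometry, local central symmetry.
-/
import Vale.Agent.Lib.P084.Defs
import Mathlib
import Vale.Agent.Lib.P084.NS.LocalMU

set_option linter.unusedSectionVars false

namespace Vale.Agent.Lib.P084.Flat

open Vale.Agent.Lib.P084.NS

variable {X : Type*} {Y : Type*} [NormedAddCommGroup X] [NormedSpace ℝ X] [NormedAddCommGroup Y]
  [NormedSpace ℝ Y]

theorem Cone.eq {φ : X →L[ℝ] ℝ} {y : X} (h : Cone φ y) : ‖y‖ = φ y := by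
  obtain ⟨r, hr, hy⟩ := h
  exact hy y (by simpa using hr)

theorem Cone.le {φ : X →L[ℝ] ℝ} {y : X} (h : Cone φ y) (z : X) : φ z ≤ ‖z‖ := by
  obtain ⟨r, hr, hy⟩ := h
  set ε : ℝ := r / (2 * (‖z‖ + 1)) with hε
  have hn : 0 < ‖z‖ + 1 := by positivity
  have hε0 : 0 < ε := by positivity
  have h1 : ‖(y + ε • z) - y‖ < r := by
    rw [add_sub_cancel_left, norm_smul, Real.norm_of_nonneg hε0.le, hε, div_mul_eq_mul_div,
      div_lt_iff₀ (by positivity)]
    nlinarith [norm_nonneg z]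
  have h2 := hy _ h1
  have h3 := hy y (by simpa using hr)
  rw [map_add, map_smul, smul_eq_mul] at h2
  have h4 : ‖y + ε • z‖ ≤ ‖y‖ + ε * ‖z‖ := by
    refine (norm_add_le _ _).trans ?_
    rw [norm_smul, Real.norm_of_nonneg hε0.le]
  have h5 : ε * φ z ≤ ε * ‖z‖ := by linarith
  exact le_of_mul_le_mul_left h5 hε0

theorem Cone.of_near {φ : X →L[ℝ] ℝ} {y : X} {r : ℝ} (hy : ∀ z, ‖z - y‖ < r → ‖z‖ = φ z) {y' : X}
    (h : ‖y' - y‖ < r) : Cone φ y' :=
  ⟨r - ‖y' - y‖, by linarith, fun z hz => hy z (by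
    have e : z - y = (z - y') + (y' - y) := by abel
    rw [e]
    exact (norm_add_le _ _).trans_lt (by linarith))⟩

theorem Cone.smul {φ : X →L[ℝ] ℝ} {y : X} (h : Cone φ y) {t : ℝ} (ht : 0 < t) :
    Cone φ (t • y) := by
  obtain ⟨r, hr, hy⟩ := h
  refine ⟨t * r, by positivity, fun z hz => ?_⟩
  have h1 : ‖t⁻¹ • z - y‖ < r := by
    have e : t⁻¹ • z - y = t⁻¹ • (z - t • y) := by
      rw [smul_sub, smul_smul, inv_mul_cancel₀ ht.ne', one_smul]
    rw [e, norm_smul, norm_inv, Real.norm_of_nonneg ht.le, inv_mul_lt_iff₀ ht]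
    exact hz
  have h2 := hy _ h1
  rw [norm_smul, norm_inv, Real.norm_of_nonneg ht.le, map_smul, smul_eq_mul] at h2
  have h3 : t * (t⁻¹ * ‖z‖) = t * (t⁻¹ * φ z) := by rw [h2]
  rwa [← mul_assoc, ← mul_assoc, mul_inv_cancel₀ ht.ne', one_mul, one_mul] at h3

/-- `f`, `g` are mutually inverse odd isometries between the unit spheres. -/
structure Pair (f : X → Y) (g : Y → X) : Prop where
  nf : ∀ x, ‖x‖ = 1 → ‖f x‖ = 1
  ng : ∀ y, ‖y‖ = 1 → ‖g y‖ = 1
  iso : ∀ x x', ‖x‖ = 1 → ‖x'‖ = 1 → ‖f x - f x'‖ = ‖x - x'‖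
  gf : ∀ x, ‖x‖ = 1 → g (f x) = x
  fg : ∀ y, ‖y‖ = 1 → f (g y) = y
  oddf : ∀ x, ‖x‖ = 1 → f (-x) = - f x

variable {f : X → Y} {g : Y → X}

theorem Pair.symm (H : Pair f g) : Pair g f where
  nf := H.ng
  ng := H.nf
  iso := fun y y' hy hy' => by
    rw [← H.iso _ _ (H.ng y hy) (H.ng y' hy'), H.fg y hy, H.fg y' hy']
  gf := H.fg
  fg := H.gf
  oddf := fun y hy => by
    have h1 := H.oddf (g y) (H.ng y hy)
    rw [H.fg y hy] at h1
    have h2 := H.gf (-(g y)) (by rw [norm_neg]; exact H.ng y hy)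
    rw [h1] at h2
    exact h2

theorem Pair.add_norm (H : Pair f g) {x x' : X} (hx : ‖x‖ = 1) (hx' : ‖x'‖ = 1) :
    ‖f x + f x'‖ = ‖x + x'‖ := by
  have h := H.iso x (-x') hx (by rw [norm_neg]; exact hx')
  rw [H.oddf x' hx', sub_neg_eq_add, sub_neg_eq_add] at h
  exact h

theorem exists_norming {E : Type*} [NormedAddCommGroup E] [NormedSpace ℝ E] {a : E} (ha : a ≠ 0) :
    ∃ χ : E →L[ℝ] ℝ, (∀ z, χ z ≤ ‖z‖) ∧ χ a = ‖a‖ := by
  obtain ⟨χ, h1, h2⟩ := exists_dual_vector ℝ a (norm_ne_zero_iff.2 ha)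
  refine ⟨χ, fun z => ?_, by simpa using h2⟩
  have h3 := χ.le_opNorm z
  rw [h1, one_mul] at h3
  exact (le_abs_self _).trans (by simpa using h3)

theorem lower_norm {E : Type*} [NormedAddCommGroup E] {s y : E} (hs : ‖s‖ = 1) (h : ‖y - s‖ < 1 / 2) :
    1 / 2 < ‖y‖ := by
  have h1 := norm_sub_le y (y - s)
  rw [sub_sub_cancel, hs] at h1
  linarith

theorem normalize_near {E : Type*} [NormedAddCommGroup E] [NormedSpace ℝ E] {s y : E}
    (hs : ‖s‖ = 1) (hy : y ≠ 0) : ‖‖y‖⁻¹ • y - s‖ ≤ 2 * ‖y - s‖ := by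
  have hn : 0 < ‖y‖ := norm_pos_iff.2 hy
  have e : ‖y‖⁻¹ • y - s = (‖y‖⁻¹ • y - y) + (y - s) := by abel
  have h1 : ‖‖y‖⁻¹ • y - y‖ = |1 - ‖y‖| := by
    have e2 : ‖y‖⁻¹ • y - y = (1 - ‖y‖) • (‖y‖⁻¹ • y) := by
      rw [smul_smul, sub_mul, one_mul, mul_inv_cancel₀ hn.ne', sub_smul, one_smul]
    rw [e2, norm_smul, norm_smul, norm_inv, norm_norm, inv_mul_cancel₀ hn.ne', mul_one,
      Real.norm_eq_abs]
  have h2 : |1 - ‖y‖| ≤ ‖y - s‖ := by
    rw [← hs]
    have h3 := abs_norm_sub_norm_le s y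
    rwa [norm_sub_rev] at h3
  rw [e]
  calc _ ≤ ‖‖y‖⁻¹ • y - y‖ + ‖y - s‖ := norm_add_le _ _
    _ ≤ 2 * ‖y - s‖ := by rw [h1]; linarith

theorem norm_normalize {E : Type*} [NormedAddCommGroup E] [NormedSpace ℝ E] {y : E} (hy : y ≠ 0) :
    ‖‖y‖⁻¹ • y‖ = 1 := by
  have hn : 0 < ‖y‖ := norm_pos_iff.2 hy
  rw [norm_smul, norm_inv, norm_norm, inv_mul_cancel₀ hn.ne']

/-- **Flat points are preserved.** -/
theorem Pair.transfer (H : Pair f g) {p : X} (hp : ‖p‖ = 1) {φ : X →L[ℝ] ℝ} (hc : Cone φ p) :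
    ∃ θ : Y →L[ℝ] ℝ, Cone θ (f p) := by
  have hle := hc.le
  obtain ⟨r, hr, hball⟩ := hc
  set s := f p with hs
  have hsn : ‖s‖ = 1 := H.nf p hp
  have hgs : g s = p := H.gf p hp
  have hpair : ∀ w w', ‖w‖ = 1 → ‖w'‖ = 1 → ‖w - s‖ < r → ‖w' - s‖ < r → ‖w + w'‖ = 2 := by
    intro w w' hw hw' h1 h2
    have hgw := H.ng w hw
    have hgw' := H.ng w' hw'
    have h3 : ‖g w - p‖ < r := by
      rw [← hgs, H.symm.iso w s hw hsn]; exact h1
    have h4 : ‖g w' - p‖ < r := by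
      rw [← hgs, H.symm.iso w' s hw' hsn]; exact h2
    have h5 := hball _ h3
    have h6 := hball _ h4
    have h7 := H.symm.add_norm hw hw'
    have h8 := hle (g w + g w')
    rw [map_add, ← h5, ← h6, hgw, hgw', h7] at h8
    have h9 : ‖w + w'‖ ≤ 2 := by
      refine (norm_add_le _ _).trans ?_
      rw [hw, hw']; norm_num
    linarith
  have hs0 : s ≠ 0 := by
    intro h; rw [h, norm_zero] at hsn; norm_num at hsn
  obtain ⟨θ, hθ1, hθ2⟩ := exists_norming hs0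
  rw [hsn] at hθ2
  refine ⟨θ, min (r / 3) (1 / 2), by positivity, fun y hy => ?_⟩
  have hy1 : ‖y - s‖ < r / 3 := hy.trans_le (min_le_left _ _)
  have hy2 : ‖y - s‖ < 1 / 2 := hy.trans_le (min_le_right _ _)
  set y' := s + s - y with hy'
  have hy'1 : ‖y' - s‖ = ‖y - s‖ := by
    have e : y' - s = -(y - s) := by rw [hy']; abel
    rw [e, norm_neg]
  have hyn := lower_norm hsn hy2
  have hyn' := lower_norm hsn (by rw [hy'1]; exact hy2 : ‖y' - s‖ < 1 / 2)
  have hy0 : y ≠ 0 := by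
    intro h; rw [h, norm_zero] at hyn; norm_num at hyn
  have hy'0 : y' ≠ 0 := by
    intro h; rw [h, norm_zero] at hyn'; norm_num at hyn'
  have hw := norm_normalize hy0
  have hw' := norm_normalize hy'0
  have hwr := normalize_near hsn hy0
  have hwr' := normalize_near hsn hy'0
  have h2 := hpair _ _ hw hw' (by linarith) (by rw [hy'1] at hwr'; linarith)
  have h20 : ‖y‖⁻¹ • y + ‖y'‖⁻¹ • y' ≠ 0 := by
    intro h; rw [h, norm_zero] at h2; norm_num at h2
  obtain ⟨χ, hχ1, hχ2⟩ := exists_norming h20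
  rw [h2, map_add] at hχ2
  have h3 := hχ1 (‖y‖⁻¹ • y)
  have h4 := hχ1 (‖y'‖⁻¹ • y')
  rw [hw] at h3
  rw [hw'] at h4
  have h5 : χ (‖y‖⁻¹ • y) = 1 := by linarith
  have h6 : χ (‖y'‖⁻¹ • y') = 1 := by linarith
  rw [map_smul, smul_eq_mul] at h5 h6
  have hn0 : ‖y‖ ≠ 0 := norm_ne_zero_iff.2 hy0
  have hn0' : ‖y'‖ ≠ 0 := norm_ne_zero_iff.2 hy'0
  have h7 : χ y = ‖y‖ := by field_simp at h5; linarith
  have h8 : χ y' = ‖y'‖ := by field_simp at h6; linarith
  have h9 : y + y' = s + s := by rw [hy']; abel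
  have h10 : χ (y + y') ≤ 2 := by
    rw [h9, map_add]
    have := hχ1 s
    rw [hsn] at this
    linarith
  rw [map_add, h7, h8] at h10
  have h11 : θ (y + y') = 2 := by
    rw [h9, map_add, hθ2]; norm_num
  rw [map_add] at h11
  have h12 := hθ1 y
  have h13 := hθ1 y'
  linarith

/-- **Local central symmetry at a flat point.** -/
theorem Pair.sym (H : Pair f g) {q : X} (hq : ‖q‖ = 1) {φ : X →L[ℝ] ℝ} {θ : Y →L[ℝ] ℝ}
    (hφ : Cone φ q) (hθ : Cone θ (f q)) :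
    ∃ R : ℝ, 0 < R ∧ ∀ h, φ h = 0 → ‖h‖ < R →
      ‖q + h‖ = 1 ∧ ‖q - h‖ = 1 ∧ f (q + h) + f (q - h) = f q + f q := by
  have hφq : φ q = 1 := by rw [← hφ.eq, hq]
  have hsn : ‖f q‖ = 1 := H.nf q hq
  have hθs : θ (f q) = 1 := by rw [← hθ.eq, hsn]
  have hgs : g (f q) = q := H.gf q hq
  obtain ⟨r1, hr1, hb1⟩ := hφ
  obtain ⟨r2, hr2, hb2⟩ := hθ
  set s := f q with hs
  set R0 := min r1 r2 / 2 with hR0
  have hR0pos : 0 < R0 := by
    have := lt_min hr1 hr2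
    positivity
  have hR01 : R0 < r1 := by
    have := min_le_left r1 r2
    have := lt_min hr1 hr2
    linarith
  have hR02 : R0 < r2 := by
    have := min_le_right r1 r2
    have := lt_min hr1 hr2
    linarith
  -- facts for small `v ∈ ker φ`
  have hunit : ∀ v : X, φ v = 0 → ‖v‖ ≤ R0 → ‖q + v‖ = 1 := by
    intro v hv hv2
    have h1 := hb1 (q + v) (by rw [add_sub_cancel_left]; linarith)
    rw [h1, map_add, hv, hφq, add_zero]
  have hval : ∀ v : X, φ v = 0 → ‖v‖ ≤ R0 → θ (f (q + v)) = 1 := by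
    intro v hv hv2
    have hu := hunit v hv hv2
    have h1 : ‖f (q + v) - s‖ < r2 := by
      rw [hs, H.iso _ _ hu hq, add_sub_cancel_left]; linarith
    rw [← hb2 _ h1, H.nf _ hu]
  let V := LinearMap.ker φ.toLinearMap
  let V' := LinearMap.ker θ.toLinearMap
  let G : V → V' := fun v => ⟨(f (q + (v : X)) - s) - θ (f (q + (v : X)) - s) • s, by
    show θ _ = 0
    rw [map_sub, map_smul, smul_eq_mul, hθs, mul_one, sub_self]⟩
  have hG : ∀ v : V, ‖(v : X)‖ ≤ R0 → ((G v : V') : Y) = f (q + (v : X)) - s := by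
    intro v hv
    have hv0 : φ (v : X) = 0 := v.2
    show (f (q + (v : X)) - s) - θ (f (q + (v : X)) - s) • s = _
    rw [map_sub, hval _ hv0 hv, hθs, sub_self, zero_smul, sub_zero]
  have hG0 : G 0 = 0 := by
    apply Subtype.ext
    rw [hG 0 (by simpa using hR0pos.le)]
    simp [hs]
  have hB : BallIso G (0 : V) R0 := by
    constructor
    · intro x hx y hy
      rw [sub_zero] at hx hy
      have hx' : ‖(x : X)‖ ≤ R0 := hx
      have hy' : ‖(y : X)‖ ≤ R0 := hy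
      show ‖((G x : V') : Y) - ((G y : V') : Y)‖ = ‖(x : X) - (y : X)‖
      rw [hG x hx', hG y hy']
      have e : (f (q + (x : X)) - s) - (f (q + (y : X)) - s) = f (q + (x : X)) - f (q + (y : X)) := by
        abel
      rw [e, H.iso _ _ (hunit _ x.2 hx') (hunit _ y.2 hy')]
      congr 1
      abel
    · intro y hy
      rw [hG0, sub_zero] at hy
      have hy' : ‖(y : Y)‖ ≤ R0 := hy
      have hy0 : θ (y : Y) = 0 := y.2
      have hz : ‖s + (y : Y)‖ = 1 := by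
        rw [hb2 (s + (y : Y)) (by rw [add_sub_cancel_left]; linarith), map_add, hy0, hθs, add_zero]
      have hx0 := H.ng _ hz
      have hd : ‖g (s + (y : Y)) - q‖ = ‖(y : Y)‖ := by
        have h1 := H.symm.iso _ _ hz hsn
        rw [hgs, add_sub_cancel_left] at h1
        exact h1
      have hφx : φ (g (s + (y : Y))) = 1 := by
        rw [← hb1 _ (by rw [hd]; linarith), hx0]
      have hmem : φ (g (s + (y : Y)) - q) = 0 := by
        rw [map_sub, hφx, hφq, sub_self]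
      let v : V := ⟨g (s + (y : Y)) - q, hmem⟩
      have hvn : ‖(v : X)‖ ≤ R0 := by
        show ‖g (s + (y : Y)) - q‖ ≤ R0
        rw [hd]; exact hy'
      refine ⟨v, by rw [sub_zero]; exact hvn, ?_⟩
      apply Subtype.ext
      rw [hG v hvn]
      show f (q + (g (s + (y : Y)) - q)) - s = _
      rw [add_sub_cancel, H.fg _ hz, add_sub_cancel_left]
  refine ⟨R0 / 9, by positivity, fun h hh hn => ?_⟩
  have hhn : ‖h‖ ≤ R0 := by linarith
  have hu1 := hunit h hh hhn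
  have hu2 : ‖q - h‖ = 1 := by
    have := hunit (-h) (by simp [hh]) (by rw [norm_neg]; exact hhn)
    rwa [← sub_eq_add_neg] at this
  refine ⟨hu1, hu2, ?_⟩
  let v : V := ⟨h, hh⟩
  have hc := hB.map_center (a := v) (b := -v) (by simp) (by
    rw [sub_zero]
    show 9 * ‖h‖ ≤ R0
    linarith)
  have hc' := congrArg (Subtype.val) hc
  rw [hG0] at hc'
  have e1 : ((G v : V') : Y) = f (q + h) - s := hG v hhn
  have e2 : ((G (-v) : V') : Y) = f (q + -h) - s := hG (-v) (by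
    show ‖-h‖ ≤ R0
    rw [norm_neg]; exact hhn)
  have e3 : ((G v + G (-v) : V') : Y) = (G v : Y) + (G (-v) : Y) := rfl
  have e4 : (((0 : V') + (0 : V') : V') : Y) = 0 := by simp
  rw [e3, e1, e2, e4, ← sub_eq_add_neg] at hc'
  have e5 : f (q + h) + f (q - h) = (f (q + h) - s + (f (q - h) - s)) + (s + s) := by abel
  rw [e5, hc', zero_add]

end Vale.Agent.Lib.P084.Flat
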