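/-
The key propagation lemma at flat points and the uniqueness of the supporting functional.
-/
import Vale.Agent.Lib.P084.Defs
import Vale.Agent.Lib.P084.Flat.Core

set_option linter.unusedSectionVars false

namespace Vale.Agent.Lib.P084.Flat

variable {X : Type*} {Y : Type*} [NormedAddCommGroup X] [NormedSpace ℝ X] [NormedAddCommGroup Y]
  [NormedSpace ℝ Y] {f : X → Y} {g : Y → X}

theorem Pair.key (H : Pair f g) {p q : X} (hp : ‖p‖ = 1) (hq : ‖q‖ = 1)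
    {φ : X →L[ℝ] ℝ} {θ : Y →L[ℝ] ℝ} {ψ : X →L[ℝ] ℝ} {N : Y →L[ℝ] ℝ}
    (hφ : Cone φ q) (hθ : Cone θ (f q)) (hψ : Cone ψ (p + q)) (hN : ∀ z, N z ≤ ‖z‖)
    (hNa : N (f p + f q) = ‖f p + f q‖) :
    ∃ R : ℝ, 0 < R ∧ ∀ h, θ h = 0 → ‖h‖ < R →
      N (f p) + N (f q + h) = ψ p + ψ (g (f q + h)) := by
  have hgs : g (f q) = q := H.gf q hq
  have hsn : ‖f q‖ = 1 := H.nf q hq
  obtain ⟨R1, hR1, hsym⟩ := H.symm.sym hsn hθ (by rw [hgs]; exact hφ)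
  have hψeq := hψ.eq
  obtain ⟨r, hr, hball⟩ := hψ
  refine ⟨min R1 r, lt_min hR1 hr, fun h hh hn => ?_⟩
  have hn1 : ‖h‖ < R1 := hn.trans_le (min_le_left _ _)
  have hn2 : ‖h‖ < r := hn.trans_le (min_le_right _ _)
  obtain ⟨h1, h2, h3⟩ := hsym h hh hn1
  rw [hgs] at h3
  set up := g (f q + h) with hup
  set um := g (f q - h) with hum
  have hupn : ‖up‖ = 1 := H.ng _ h1
  have humn : ‖um‖ = 1 := H.ng _ h2
  have hd1 : ‖up - q‖ = ‖h‖ := by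
    have h4 := H.symm.iso _ _ h1 hsn
    rw [hgs, add_sub_cancel_left] at h4
    exact h4
  have hd2 : ‖um - q‖ = ‖h‖ := by
    have h4 := H.symm.iso _ _ h2 hsn
    rw [hgs] at h4
    rw [h4]
    have e : f q - h - f q = -h := by abel
    rw [e, norm_neg]
  have hfup : f up = f q + h := H.fg _ h1
  have hfum : f um = f q - h := H.fg _ h2
  have hv1 : ‖p + up‖ = ψ (p + up) := hball _ (by
    have e : p + up - (p + q) = up - q := by abel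
    rw [e, hd1]; exact hn2)
  have hv2 : ‖p + um‖ = ψ (p + um) := hball _ (by
    have e : p + um - (p + q) = um - q := by abel
    rw [e, hd2]; exact hn2)
  have hn1' : ‖f p + (f q + h)‖ = ‖p + up‖ := by
    rw [← hfup]; exact H.add_norm hp hupn
  have hn2' : ‖f p + (f q - h)‖ = ‖p + um‖ := by
    rw [← hfum]; exact H.add_norm hp humn
  have hsum : ψ (p + up) + ψ (p + um) = 2 * ‖f p + f q‖ := by
    rw [H.add_norm hp hq, hψeq]
    have e : (p + up) + (p + um) = (2 : ℝ) • (p + q) := by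
      have e2 : (2 : ℝ) • (p + q) = (p + p) + (q + q) := by
        rw [two_smul]; abel
      rw [e2, ← h3]; abel
    rw [← map_add, e, map_smul, smul_eq_mul]
  have hNp := hN (f p + (f q + h))
  have hNm := hN (f p + (f q - h))
  have hNs : N (f p + (f q + h)) + N (f p + (f q - h)) = 2 * N (f p + f q) := by
    simp only [map_add, map_sub]
    ring
  rw [hn1', hv1] at hNp
  rw [hn2', hv2] at hNm
  rw [hNa] at hNs
  have hfin : N (f p + (f q + h)) = ψ (p + up) := by linarith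
  rw [map_add, map_add ψ] at hfin
  exact hfin

theorem vanish_of_small {E : Type*} [NormedAddCommGroup E] [NormedSpace ℝ E] {θ D : E →L[ℝ] ℝ}
    {R : ℝ} (hR : 0 < R) (hv : ∀ h, θ h = 0 → ‖h‖ < R → D h = 0) {h : E} (hh : θ h = 0) : D h = 0 := by
  set ε : ℝ := R / (2 * (‖h‖ + 1)) with hε
  have hn : 0 < ‖h‖ + 1 := by positivity
  have hε0 : 0 < ε := by positivity
  have h1 : ‖ε • h‖ < R := by
    rw [norm_smul, Real.norm_of_nonneg hε0.le, hε, div_mul_eq_mul_div, div_lt_iff₀ (by positivity)]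
    nlinarith [norm_nonneg h]
  have h2 := hv (ε • h) (by rw [map_smul, hh, smul_zero]) h1
  rw [map_smul, smul_eq_mul] at h2
  exact (mul_eq_zero.1 h2).resolve_left hε0.ne'

theorem decompose_of_vanish {E : Type*} [NormedAddCommGroup E] [NormedSpace ℝ E] {θ D : E →L[ℝ] ℝ}
    {s : E} (hs : θ s = 1) (hv : ∀ h, θ h = 0 → D h = 0) (z : E) : D z = θ z * D s := by
  have h1 := hv (z - θ z • s) (by rw [map_sub, map_smul, smul_eq_mul, hs, mul_one, sub_self])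
  rw [map_sub, map_smul, smul_eq_mul] at h1
  linarith

/-- Uniqueness of the norming functional. -/
theorem unique_of_small {E : Type*} [NormedAddCommGroup E] [NormedSpace ℝ E] {θ ψ₁ ψ₂ : E →L[ℝ] ℝ}
    {s a₁ a₂ : E} (hs : θ s = 1) (h1 : ∀ z, ψ₁ z ≤ ‖z‖) (h2 : ∀ z, ψ₂ z ≤ ‖z‖)
    (ha1 : ψ₁ a₁ = ‖a₁‖) (ha2 : ψ₂ a₂ = ‖a₂‖) (hp1 : 0 < θ a₁) (hp2 : 0 < θ a₂) {R : ℝ} (hR : 0 < R)
    (hv : ∀ h, θ h = 0 → ‖h‖ < R → ψ₁ h = ψ₂ h) : ψ₁ = ψ₂ := by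
  set D := ψ₁ - ψ₂ with hD
  have hDa : ∀ z, D z = ψ₁ z - ψ₂ z := fun z => rfl
  have hv2 : ∀ h, θ h = 0 → D h = 0 := fun h hh =>
    vanish_of_small hR (fun h hh hn => by rw [hDa, hv h hh hn, sub_self]) hh
  have hz := decompose_of_vanish hs hv2
  have hc1 : 0 ≤ D s := by
    have h3 := hz a₁
    have h4 := h2 a₁
    rw [hDa, ha1] at h3
    have h5 : 0 ≤ θ a₁ * D s := by linarith
    exact nonneg_of_mul_nonneg_right h5 hp1
  have hc2 : D s ≤ 0 := by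
    have h3 := hz a₂
    have h4 := h1 a₂
    rw [hDa, ha2] at h3
    have h5 : θ a₂ * D s ≤ 0 := by linarith
    by_contra hcon
    push Not at hcon
    have := mul_pos hp2 hcon
    linarith
  have hc : D s = 0 := le_antisymm hc2 hc1
  ext z
  have h3 := hz z
  rw [hc, mul_zero, hDa] at h3
  linarith

theorem Cone.abs_bound {E : Type*} [NormedAddCommGroup E] [NormedSpace ℝ E] {φ : E →L[ℝ] ℝ} {y : E}
    (h : Cone φ y) (z : E) : |φ z| ≤ ‖z‖ := by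
  refine abs_le.2 ⟨?_, h.le z⟩
  have h1 := h.le (-z)
  rw [map_neg, norm_neg] at h1
  linarith

/-- Positivity. -/
theorem Pair.pos_add (H : Pair f g) {r q : X} (hr : ‖r‖ = 1) (hq : ‖q‖ = 1) (hlt : ‖r - q‖ < 2)
    {θ : Y →L[ℝ] ℝ} (hθ : Cone θ (f r)) : 0 < θ (f r + f q) := by
  have h1 : θ (f r) = 1 := by rw [← hθ.eq, H.nf r hr]
  have h2 := hθ.abs_bound (f r - f q)
  rw [H.iso r q hr hq] at h2
  have h3 := (abs_le.1 h2).2
  rw [map_sub] at h3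
  rw [map_add]
  linarith

/-- **Local data.** -/
theorem Pair.local_data (H : Pair f g) (hd : FlatDense X) {p₀ q₀ : X} (hp₀ : ‖p₀‖ = 1)
    (hq₀ : ‖q₀‖ = 1) (hlt : ‖p₀ - q₀‖ < 2) {ψ : X →L[ℝ] ℝ} (hψ : Cone ψ (p₀ + q₀)) :
    ∃ (q₁ : X) (ρ : ℝ) (ϑ : Y →L[ℝ] ℝ), ‖q₁‖ = 1 ∧ 0 < ρ ∧ (∀ z, ϑ z ≤ ‖z‖) ∧
      ∀ p, ‖p‖ = 1 → ‖p - p₀‖ < ρ → ‖p - q₁‖ < 2 ∧ ϑ (f p) + ϑ (f q₁) = ‖p + q₁‖ ∧
        ϑ (f p) + ϑ (f q₁) = ψ p + ψ q₁ := by
  obtain ⟨r, hr, hball⟩ := hψ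
  set a := min r (2 - ‖p₀ - q₀‖) / 4 with ha
  have ha0 : 0 < a := by
    have := lt_min hr (by linarith : 0 < 2 - ‖p₀ - q₀‖)
    positivity
  have ha1 : 4 * a ≤ r := by
    have := min_le_left r (2 - ‖p₀ - q₀‖)
    rw [ha]; linarith
  have ha2 : 4 * a ≤ 2 - ‖p₀ - q₀‖ := by
    have := min_le_right r (2 - ‖p₀ - q₀‖)
    rw [ha]; linarith
  obtain ⟨q₁, hq₁, hq₁near, φ₁, hφ₁⟩ := hd q₀ hq₀ a ha0
  obtain ⟨θ₁, hθ₁⟩ := H.transfer hq₁ hφ₁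
  have hfq₁ : ‖f q₁‖ = 1 := H.nf q₁ hq₁
  have hθ₁s : θ₁ (f q₁) = 1 := by rw [← hθ₁.eq, hfq₁]
  -- the uniform facts
  have hlt₁ : ∀ p, ‖p - p₀‖ < a → ‖p - q₁‖ < 2 := by
    intro p hp
    have e : p - q₁ = (p - p₀) + (p₀ - q₀) - (q₁ - q₀) := by abel
    rw [e]
    have h1 := norm_sub_le ((p - p₀) + (p₀ - q₀)) (q₁ - q₀)
    have h2 := norm_add_le (p - p₀) (p₀ - q₀)
    linarith
  have hcone : ∀ p, ‖p - p₀‖ < a → Cone ψ (p + q₁) := by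
    intro p hp
    refine Cone.of_near hball ?_
    have e : p + q₁ - (p₀ + q₀) = (p - p₀) + (q₁ - q₀) := by abel
    rw [e]
    have h2 := norm_add_le (p - p₀) (q₁ - q₀)
    linarith
  have hpos : ∀ p, ‖p‖ = 1 → ‖p - p₀‖ < a → 0 < θ₁ (f p + f q₁) := by
    intro p hp hpa
    have h1 := H.pos_add hq₁ hp (by rw [norm_sub_rev]; exact hlt₁ p hpa) hθ₁
    rwa [add_comm] at h1
  have hne : ∀ p, ‖p‖ = 1 → ‖p - p₀‖ < a → f p + f q₁ ≠ 0 := by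
    intro p hp hpa h0
    have h1 := hpos p hp hpa
    rw [h0, map_zero] at h1
    exact lt_irrefl _ h1
  have hp₀a : ‖p₀ - p₀‖ < a := by simpa using ha0
  obtain ⟨ϑ, hϑ1, hϑ2⟩ := exists_norming (hne p₀ hp₀ hp₀a)
  obtain ⟨R0, hR0, hk0⟩ := H.key hp₀ hq₁ hφ₁ hθ₁ (hcone p₀ hp₀a) hϑ1 hϑ2
  refine ⟨q₁, a, ϑ, hq₁, ha0, hϑ1, fun p hp hpa => ?_⟩
  obtain ⟨N, hN1, hN2⟩ := exists_norming (hne p hp hpa)
  obtain ⟨R1, hR1, hk1⟩ := H.key hp hq₁ hφ₁ hθ₁ (hcone p hpa) hN1 hN2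
  -- `N` and `ϑ` agree on small vectors of the kernel
  have hagree : ∀ h, θ₁ h = 0 → ‖h‖ < min R0 R1 → N h = ϑ h := by
    intro h hh hn
    have h1 := hk0 h hh (hn.trans_le (min_le_left _ _))
    have h2 := hk1 h hh (hn.trans_le (min_le_right _ _))
    have h3 := hk0 0 (map_zero _) (by simpa using hR0)
    have h4 := hk1 0 (map_zero _) (by simpa using hR1)
    rw [add_zero] at h3 h4
    rw [map_add] at h1 h2
    linarith
  have hNϑ : N = ϑ := unique_of_small hθ₁s hN1 hϑ1 hN2 hϑ2 (hpos p hp hpa) (hpos p₀ hp₀ hp₀a)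
    (lt_min hR0 hR1) hagree
  rw [hNϑ] at hN2
  rw [map_add, H.add_norm hp hq₁] at hN2
  refine ⟨hlt₁ p hpa, hN2, ?_⟩
  rw [hN2, (hcone p hpa).eq, map_add]

end Vale.Agent.Lib.P084.Flat
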