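/-
Propagation along paths in the sphere.
-/
import Vale.Agent.Lib.P084.Flat.Key

set_option linter.unusedSectionVars false

namespace Vale.Agent.Lib.P084.Flat

open Set

variable {X : Type*} {Y : Type*} [NormedAddCommGroup X] [NormedSpace ℝ X] [NormedAddCommGroup Y]
  [NormedSpace ℝ Y] {f : X → Y} {g : Y → X}

/-- Propagation data at `x`. -/
def Good (f : X → Y) (φ : X →L[ℝ] ℝ) (θ : Y →L[ℝ] ℝ) (x : X) : Prop :=
  ∃ (q : X) (ρ : ℝ), ‖q‖ = 1 ∧ 0 < ρ ∧ ∀ p, ‖p‖ = 1 → ‖p - x‖ < ρ →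
    ‖p - q‖ < 2 ∧ θ (f p) + θ (f q) = ‖p + q‖ ∧ θ (f p) = φ p

theorem Good.near {φ : X →L[ℝ] ℝ} {θ : Y →L[ℝ] ℝ} {x : X} (h : Good f φ θ x) :
    ∃ ε : ℝ, 0 < ε ∧ ∀ x', ‖x' - x‖ < ε → Good f φ θ x' := by
  obtain ⟨q, ρ, hq, hρ, hall⟩ := h
  refine ⟨ρ / 2, by positivity, fun x' hx' => ⟨q, ρ / 2, hq, by positivity, fun p hp hpx => ?_⟩⟩
  apply hall p hp
  have e : p - x = (p - x') + (x' - x) := by abel
  rw [e]
  exact (norm_add_le _ _).trans_lt (by linarith)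

/-- A Good point is a value point. -/
theorem Good.value {φ : X →L[ℝ] ℝ} {θ : Y →L[ℝ] ℝ} {x : X} (h : Good f φ θ x) (hx : ‖x‖ = 1) :
    θ (f x) = φ x := by
  obtain ⟨q, ρ, hq, hρ, hall⟩ := h
  exact (hall x hx (by simpa using hρ)).2.2

/-- The starting point. -/
theorem Pair.good_start (H : Pair f g) {e : X} (he : ‖e‖ = 1) {φ : X →L[ℝ] ℝ} {θ : Y →L[ℝ] ℝ}
    (hφ : Cone φ e) (hθ : Cone θ (f e)) : Good f φ θ e := by
  have hφe : φ e = 1 := by rw [← hφ.eq, he]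
  have hθe : θ (f e) = 1 := by rw [← hθ.eq, H.nf e he]
  have hle := hφ.le
  obtain ⟨r1, hr1, hb1⟩ := hφ
  obtain ⟨r2, hr2, hb2⟩ := hθ
  refine ⟨e, min r1 (min r2 1), he, lt_min hr1 (lt_min hr2 one_pos), fun p hp hn => ?_⟩
  have h1 : ‖p - e‖ < r1 := hn.trans_le (min_le_left _ _)
  have h2 : ‖p - e‖ < r2 := hn.trans_le ((min_le_right _ _).trans (min_le_left _ _))
  have h3 : ‖p - e‖ < 1 := hn.trans_le ((min_le_right _ _).trans (min_le_right _ _))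
  have hφp : φ p = 1 := by rw [← hb1 p h1, hp]
  have hθp : θ (f p) = 1 := by
    rw [← hb2 (f p) (by rw [H.iso p e hp he]; exact h2), H.nf p hp]
  refine ⟨by linarith, ?_, by rw [hθp, hφp]⟩
  have h4 : ‖p + e‖ ≤ 2 := by
    refine (norm_add_le _ _).trans ?_
    rw [hp, he]; norm_num
  have h5 := hle (p + e)
  rw [map_add, hφp, hφe] at h5
  rw [hθp, hθe]
  have h6 : ‖p + e‖ = 2 := le_antisymm h4 (by linarith)
  rw [h6]; norm_num

/-- The closure step. -/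
theorem Pair.good_of_closure (H : Pair f g) (hd : FlatDense X) {φ : X →L[ℝ] ℝ} {θ : Y →L[ℝ] ℝ}
    (hθ : ∀ z, θ z ≤ ‖z‖) {p₀ q₀ : X} (hp₀ : ‖p₀‖ = 1) (hq₀ : ‖q₀‖ = 1) (hlt : ‖p₀ - q₀‖ < 2)
    (hψ : Cone φ (p₀ + q₀))
    (hcl : ∀ ε : ℝ, 0 < ε → ∃ x₁ : X, ‖x₁‖ = 1 ∧ Good f φ θ x₁ ∧ ‖x₁ - p₀‖ < ε) :
    Good f φ θ p₀ := by
  obtain ⟨q₁, ρ, ϑ, hq₁, hρ, hϑ, hU⟩ := H.local_data hd hp₀ hq₀ hlt hψ
  obtain ⟨x₁, hx₁, ⟨qA, ρA, hqA, hρA, hA⟩, hx₁p⟩ := hcl (ρ / 2) (by positivity)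
  obtain ⟨r, hr, hrx, φr, hφr⟩ := hd x₁ hx₁ (min (ρ / 2) ρA) (lt_min (by positivity) hρA)
  have hrx1 : ‖r - x₁‖ < ρ / 2 := hrx.trans_le (min_le_left _ _)
  have hrx2 : ‖r - x₁‖ < ρA := hrx.trans_le (min_le_right _ _)
  have hrp : ‖r - p₀‖ < ρ := by
    have e : r - p₀ = (r - x₁) + (x₁ - p₀) := by abel
    rw [e]
    exact (norm_add_le _ _).trans_lt (by linarith)
  set δ := min (ρA - ‖r - x₁‖) (ρ - ‖r - p₀‖) with hδ
  have hδ0 : 0 < δ := lt_min (by linarith) (by linarith)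
  have hnear1 : ∀ u, ‖u - r‖ < δ → ‖u - x₁‖ < ρA := by
    intro u hu
    have e : u - x₁ = (u - r) + (r - x₁) := by abel
    rw [e]
    have h1 : ‖u - r‖ < ρA - ‖r - x₁‖ := hu.trans_le (min_le_left _ _)
    exact (norm_add_le _ _).trans_lt (by linarith)
  have hnear2 : ∀ u, ‖u - r‖ < δ → ‖u - p₀‖ < ρ := by
    intro u hu
    have e : u - p₀ = (u - r) + (r - p₀) := by abel
    rw [e]
    have h1 : ‖u - r‖ < ρ - ‖r - p₀‖ := hu.trans_le (min_le_right _ _)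
    exact (norm_add_le _ _).trans_lt (by linarith)
  obtain ⟨θs, hθs⟩ := H.transfer hr hφr
  have hsn : ‖f r‖ = 1 := H.nf r hr
  have hθss : θs (f r) = 1 := by rw [← hθs.eq, hsn]
  obtain ⟨r2, hr2, hb2⟩ := id hθs
  have hr00 : ‖r - r‖ < δ := by simpa using hδ0
  obtain ⟨h1r, h2r, h3r⟩ := hU r hr (hnear2 r hr00)
  obtain ⟨h4r, h5r, h6r⟩ := hA r hr (hnear1 r hr00)
  have hagree : ∀ h, θs h = 0 → ‖h‖ < min r2 δ → ϑ h = θ h := by
    intro h hh hn
    have hn1 : ‖h‖ < r2 := hn.trans_le (min_le_left _ _)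
    have hn2 : ‖h‖ < δ := hn.trans_le (min_le_right _ _)
    have hz : ‖f r + h‖ = 1 := by
      rw [hb2 (f r + h) (by rw [add_sub_cancel_left]; exact hn1), map_add, hh, hθss, add_zero]
    set u := g (f r + h) with hu
    have hun : ‖u‖ = 1 := H.ng _ hz
    have hfu : f u = f r + h := H.fg _ hz
    have hur : ‖u - r‖ < δ := by
      have h4 := H.iso u r hun hr
      rw [← h4, hfu, add_sub_cancel_left]
      exact hn2
    obtain ⟨-, -, h3u⟩ := hU u hun (hnear2 u hur)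
    obtain ⟨-, -, h6u⟩ := hA u hun (hnear1 u hur)
    rw [hfu, map_add] at h3u
    rw [hfu, map_add] at h6u
    linarith
  have hpos1 := H.pos_add hr hq₁ h1r hθs
  have hposA := H.pos_add hr hqA h4r hθs
  have heq : ϑ = θ := unique_of_small hθss hϑ hθ
    (a₁ := f r + f q₁) (a₂ := f r + f qA)
    (by rw [map_add, H.add_norm hr hq₁]; exact h2r)
    (by rw [map_add, H.add_norm hr hqA]; exact h5r)
    hpos1 hposA (lt_min hr2 hδ0) hagree
  subst heq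
  refine ⟨q₁, ρ, hq₁, hρ, fun p hp hpn => ?_⟩
  obtain ⟨h1, h2, h3⟩ := hU p hp hpn
  refine ⟨h1, h2, ?_⟩
  have h7 : ϑ (f q₁) = φ q₁ := by linarith
  linarith

/-- Convex combination strictly inside the ball. -/
theorem norm_comb_lt {E : Type*} [NormedAddCommGroup E] [NormedSpace ℝ E] {a b : E} (ha : ‖a‖ ≤ 1)
    (hb : ‖b‖ < 1) {l : ℝ} (h0 : 0 < l) (h1 : l ≤ 1) : ‖(1 - l) • a + l • b‖ < 1 := by
  have h2 := norm_add_le ((1 - l) • a) (l • b)
  rw [norm_smul, norm_smul, Real.norm_of_nonneg (by linarith : 0 ≤ 1 - l),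
    Real.norm_of_nonneg h0.le] at h2
  have h3 : (1 - l) * ‖a‖ ≤ (1 - l) * 1 := mul_le_mul_of_nonneg_left ha (by linarith)
  have h4 : l * ‖b‖ < l * 1 := mul_lt_mul_of_pos_left hb h0
  linarith

/-- The partner point on the sphere. -/
theorem exists_partner {E : Type*} [NormedAddCommGroup E] [NormedSpace ℝ E] {e x : E} (he : ‖e‖ = 1)
    (hx : ‖x‖ = 1) {t : ℝ} (ht : 0 < t) (h : ‖x - t • e‖ < 1) :
    ∃ (q₀ : E) (t₀ : ℝ), ‖q₀‖ = 1 ∧ 0 < t₀ ∧ x + q₀ = t₀ • e ∧ ‖x - q₀‖ < 2 := by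
  set F : ℝ → ℝ := fun τ => ‖τ • e - x‖ with hF
  have hFc : Continuous F := by fun_prop
  have hFt : F t < 1 := by
    show ‖t • e - x‖ < 1
    rw [norm_sub_rev]; exact h
  have hFb : 1 ≤ F (t + 2) := by
    show 1 ≤ ‖(t + 2) • e - x‖
    have h1 := norm_sub_norm_le ((t + 2) • e) x
    rw [norm_smul, he, mul_one, hx, Real.norm_of_nonneg (by linarith)] at h1
    linarith
  have hmem : (1 : ℝ) ∈ Icc (F t) (F (t + 2)) := ⟨hFt.le, hFb⟩
  obtain ⟨t₀, ⟨ht₀1, -⟩, ht₀⟩ := intermediate_value_Icc (by linarith : t ≤ t + 2) hFc.continuousOn hmem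
  have ht₀pos : 0 < t₀ := by linarith
  have htt₀ : t < t₀ := by
    refine lt_of_le_of_ne ht₀1 (fun h' => ?_)
    rw [← h'] at ht₀
    linarith
  have ht₀' : ‖t₀ • e - x‖ = 1 := ht₀
  refine ⟨t₀ • e - x, t₀, ht₀', ht₀pos, by abel, ?_⟩
  have hhalf : ‖x - (t₀ / 2) • e‖ < 1 := by
    by_cases hc : t₀ / 2 ≤ t
    · have hl0 : 0 < t₀ / (2 * t) := by positivity
      have hl1 : t₀ / (2 * t) ≤ 1 := by
        rw [div_le_one (by positivity)]
        linarith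
      have h1 := norm_comb_lt hx.le h hl0 hl1
      have e1 : (1 - t₀ / (2 * t)) • x + (t₀ / (2 * t)) • (x - t • e) = x - (t₀ / 2) • e := by
        rw [smul_sub, smul_smul, ← add_sub_assoc, ← add_smul, sub_add_cancel, one_smul]
        congr 2
        field_simp
      rwa [e1] at h1
    · push Not at hc
      have hpos : 0 < t₀ - t := by linarith
      have hl0 : 0 < t₀ / (2 * (t₀ - t)) := by positivity
      have hl1 : t₀ / (2 * (t₀ - t)) ≤ 1 := by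
        rw [div_le_one (by positivity)]
        linarith
      have hb1 : ‖x - t₀ • e‖ ≤ 1 := by
        rw [norm_sub_rev]; exact ht₀'.le
      have h1 := norm_comb_lt hb1 h hl0 hl1
      have e1 : (1 - t₀ / (2 * (t₀ - t))) • (x - t₀ • e) + (t₀ / (2 * (t₀ - t))) • (x - t • e)
          = x - (t₀ / 2) • e := by
        have hl : t₀ - (t₀ / (2 * (t₀ - t))) * (t₀ - t) = t₀ / 2 := by
          field_simp
          ring
        rw [← hl]
        set l := t₀ / (2 * (t₀ - t)) with hld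
        module
      rwa [e1] at h1
  have e2 : x - (t₀ • e - x) = (2 : ℝ) • (x - (t₀ / 2) • e) := by
    rw [smul_sub, smul_smul, two_smul]
    have : (2 : ℝ) * (t₀ / 2) = t₀ := by ring
    rw [this]
    abel
  rw [e2, norm_smul]
  norm_num
  linarith

/-- The path in the sphere. -/
theorem exists_path {E : Type*} [NormedAddCommGroup E] [NormedSpace ℝ E] {e p : E} (he : ‖e‖ = 1)
    (hp : ‖p‖ = 1) {t₁ : ℝ} (ht₁ : 0 < t₁) (h : ‖p - t₁ • e‖ < 1) :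
    ∃ γ : ℝ → E, ContinuousOn γ (Icc 0 1) ∧ γ 0 = p ∧ γ 1 = e ∧
      ∀ s ∈ Icc (0 : ℝ) 1, ‖γ s‖ = 1 ∧ ∃ t : ℝ, 0 < t ∧ ‖γ s - t • e‖ < 1 := by
  have hge : ∀ τ : ℝ, 0 ≤ τ → 1 ≤ ‖p + τ • e‖ := by
    intro τ hτ
    by_contra hcon
    push Not at hcon
    have e1 : (t₁ + τ) • p = t₁ • (p + τ • e) + τ • (p - t₁ • e) := by
      rw [smul_add, smul_sub, smul_smul, smul_smul, add_smul, mul_comm]
      abel
    have h1 := congrArg norm e1
    have h2 := norm_add_le (t₁ • (p + τ • e)) (τ • (p - t₁ • e))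
    rw [h1.symm] at h2
    rw [norm_smul, norm_smul, norm_smul, hp, Real.norm_of_nonneg (by positivity),
      Real.norm_of_nonneg ht₁.le, Real.norm_of_nonneg hτ, mul_one] at h2
    have h3 : t₁ * ‖p + τ • e‖ < t₁ * 1 := mul_lt_mul_of_pos_left hcon ht₁
    have h4 : τ * ‖p - t₁ • e‖ ≤ τ * 1 := mul_le_mul_of_nonneg_left h.le hτ
    linarith
  set n : ℝ → ℝ := fun s => ‖(1 - s) • p + s • e‖ with hn
  have hnc : Continuous n := by fun_prop
  have hn1 : ∀ s ∈ Icc (0 : ℝ) 1, 1 - s ≤ n s := by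
    rintro s ⟨hs0, hs1⟩
    rcases eq_or_lt_of_le hs1 with rfl | hlt
    · show 1 - 1 ≤ ‖(1 - (1 : ℝ)) • p + (1 : ℝ) • e‖
      simp [he]
    · have hpos : 0 < 1 - s := by linarith
      have e1 : (1 - s) • p + s • e = (1 - s) • (p + (s / (1 - s)) • e) := by
        rw [smul_add, smul_smul]
        congr 2
        field_simp
      show 1 - s ≤ ‖(1 - s) • p + s • e‖
      rw [e1, norm_smul, Real.norm_of_nonneg hpos.le]
      have := hge (s / (1 - s)) (by positivity)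
      nlinarith
  have hn2 : ∀ s ∈ Icc (0 : ℝ) 1, 0 < n s := by
    rintro s ⟨hs0, hs1⟩
    rcases eq_or_lt_of_le hs1 with rfl | hlt
    · show 0 < ‖(1 - (1 : ℝ)) • p + (1 : ℝ) • e‖
      simp [he]
    · have := hn1 s ⟨hs0, hs1⟩
      linarith
  refine ⟨fun s => (n s)⁻¹ • ((1 - s) • p + s • e), ?_, ?_, ?_, ?_⟩
  · refine ContinuousOn.smul (hnc.continuousOn.inv₀ (fun s hs => (hn2 s hs).ne')) ?_
    exact Continuous.continuousOn (by fun_prop)
  · simp [hn, hp]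
  · simp [hn, he]
  · intro s hs
    have hnpos := hn2 s hs
    obtain ⟨hs0, hs1⟩ := hs
    refine ⟨?_, ?_⟩
    · show ‖(n s)⁻¹ • ((1 - s) • p + s • e)‖ = 1
      rw [norm_smul, norm_inv, Real.norm_of_nonneg hnpos.le]
      exact inv_mul_cancel₀ hnpos.ne'
    · have hnum : 0 < s + (1 - s) * t₁ := by
        rcases eq_or_lt_of_le hs0 with rfl | hlt
        · simpa using ht₁
        · have : 0 ≤ (1 - s) * t₁ := mul_nonneg (by linarith) ht₁.le
          linarith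
      refine ⟨(n s)⁻¹ * (s + (1 - s) * t₁), by positivity, ?_⟩
      have e1 : (n s)⁻¹ • ((1 - s) • p + s • e) - ((n s)⁻¹ * (s + (1 - s) * t₁)) • e
          = (n s)⁻¹ • ((1 - s) • (p - t₁ • e)) := by
        rw [← smul_smul, ← smul_sub]
        congr 1
        rw [add_smul, smul_sub, smul_smul]
        abel
      rw [e1, norm_smul, norm_smul, norm_inv, Real.norm_of_nonneg hnpos.le,
        Real.norm_of_nonneg (by linarith : 0 ≤ 1 - s), inv_mul_lt_iff₀ hnpos, mul_one]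
      rcases eq_or_lt_of_le hs1 with rfl | hlt
      · simpa using hnpos
      · have h2 := hn1 s ⟨hs0, hs1⟩
        have h3 : (1 - s) * ‖p - t₁ • e‖ < (1 - s) * 1 :=
          mul_lt_mul_of_pos_left h (by linarith)
        linarith

/-- Clopen argument on the unit interval. -/
theorem connect {E : Type*} [NormedAddCommGroup E] {P : E → Prop} (γ : ℝ → E)
    (hc : ContinuousOn γ (Icc 0 1))
    (hopen : ∀ x, P x → ∃ ε : ℝ, 0 < ε ∧ ∀ x', ‖x' - x‖ < ε → P x')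
    (hclosed : ∀ s ∈ Icc (0 : ℝ) 1,
      (∀ ε : ℝ, 0 < ε → ∃ s' ∈ Icc (0 : ℝ) 1, P (γ s') ∧ ‖γ s' - γ s‖ < ε) → P (γ s))
    (h1 : P (γ 1)) : ∀ s ∈ Icc (0 : ℝ) 1, P (γ s) := by
  let γ' : Icc (0 : ℝ) 1 → E := fun s => γ s
  have hγ' : Continuous γ' := continuousOn_iff_continuous_restrict.1 hc
  let W : Set (Icc (0 : ℝ) 1) := {s | P (γ' s)}
  have hWo : IsOpen W := by
    rw [isOpen_iff_mem_nhds]
    intro s hs
    obtain ⟨ε, hε, hall⟩ := hopen _ hs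
    have h2 : γ' ⁻¹' (Metric.ball (γ' s) ε) ∈ nhds s :=
      hγ'.continuousAt.preimage_mem_nhds (Metric.ball_mem_nhds _ hε)
    refine Filter.mem_of_superset h2 (fun s' hs' => ?_)
    apply hall
    have := Metric.mem_ball.1 hs'
    rwa [dist_eq_norm] at this
  have hWc : IsClosed W := by
    apply isClosed_of_closure_subset
    intro s hs
    apply hclosed s.1 s.2
    intro ε hε
    have h2 : γ' ⁻¹' (Metric.ball (γ' s) ε) ∈ nhds s :=
      hγ'.continuousAt.preimage_mem_nhds (Metric.ball_mem_nhds _ hε)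
    obtain ⟨s', hs'1, hs'2⟩ := mem_closure_iff_nhds.1 hs _ h2
    refine ⟨s'.1, s'.2, hs'2, ?_⟩
    have := Metric.mem_ball.1 hs'1
    rwa [dist_eq_norm] at this
  have hne : W.Nonempty := ⟨⟨1, by simp⟩, h1⟩
  have hall : W = univ := IsClopen.eq_univ ⟨hWc, hWo⟩ hne
  intro s hs
  have : (⟨s, hs⟩ : Icc (0 : ℝ) 1) ∈ W := by rw [hall]; trivial
  exact this

/-- Propagation over the open set `D_e`. -/
theorem Pair.value_on_D (H : Pair f g) (hd : FlatDense X) {φ : X →L[ℝ] ℝ} {θ : Y →L[ℝ] ℝ} {e : X}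
    (he : ‖e‖ = 1) (hφ : Cone φ e) (hθ : Cone θ (f e)) {p : X} (hp : ‖p‖ = 1) {t : ℝ} (ht : 0 < t)
    (h : ‖p - t • e‖ < 1) : θ (f p) = φ p := by
  obtain ⟨γ, hγc, hγ0, hγ1, hγ⟩ := exists_path he hp ht h
  have hall := connect (P := Good f φ θ) γ hγc (fun x hx => hx.near) ?_
    (by rw [hγ1]; exact H.good_start he hφ hθ)
  · have h0 := hall 0 (by simp)
    rw [hγ0] at h0
    exact h0.value hp
  · intro s hs hcl
    obtain ⟨hn, t', ht', hd'⟩ := hγ s hs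
    obtain ⟨q₀, t₀, hq₀, ht₀, hsum, hlt⟩ := exists_partner he hn ht' hd'
    refine H.good_of_closure hd (hθ.le) hn hq₀ hlt (by rw [hsum]; exact hφ.smul ht₀) ?_
    intro ε hε
    obtain ⟨s', hs', hP, hnear⟩ := hcl ε hε
    exact ⟨γ s', (hγ s' hs').1, hP, hnear⟩

end Vale.Agent.Lib.P084.Flat
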