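/-
**Tingley's problem for spaces with dense flat points.**

If the points of the unit sphere of `X` (or of `Y`) near which the norm is linear are dense in the
sphere, every surjective isometry of the unit spheres extends to a surjective linear isometry.
No completeness, no dimension restriction, no Radon-Nikodym assumption is made.
-/
import Vale.Agent.Lib.P084.Flat.Prop

set_option linter.unusedSectionVars false

namespace Vale.Agent.Lib.P084.Flat

open Set

variable {X : Type*} {Y : Type*} [NormedAddCommGroup X] [NormedSpace ℝ X] [NormedAddCommGroup Y]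
  [NormedSpace ℝ Y] {f : X → Y} {g : Y → X}

/-- For a flat point `e₀` with transferred functional `θ`, `θ ∘ f = φ` on the whole sphere. -/
theorem Pair.value (H : Pair f g) (hd : FlatDense X) {e₀ : X} (he₀ : ‖e₀‖ = 1) {φ : X →L[ℝ] ℝ}
    {θ : Y →L[ℝ] ℝ} (hφ : Cone φ e₀) (hθ : Cone θ (f e₀)) {x : X} (hx : ‖x‖ = 1) :
    θ (f x) = φ x := by
  have hφe : φ e₀ = 1 := by rw [← hφ.eq, he₀]
  have hφabs := hφ.abs_bound
  have hθabs := hθ.abs_bound
  -- flat points first
  have hflat : ∀ p : X, ‖p‖ = 1 → ∀ ψ : X →L[ℝ] ℝ, Cone ψ p → θ (f p) = φ p := by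
    intro p hp ψ hψ
    have hψp : ψ p = 1 := by rw [← hψ.eq, hp]
    obtain ⟨r1, hr1, hb1⟩ := id hφ
    obtain ⟨r2, hr2, hb2⟩ := id hθ
    obtain ⟨rp, hrp, hbp⟩ := id hψ
    set R := min r1 r2 / 2 with hR
    have hR0 : 0 < R := by
      have := lt_min hr1 hr2
      positivity
    have hR1 : R < r1 := by
      have := min_le_left r1 r2
      have := lt_min hr1 hr2
      linarith
    have hR2 : R < r2 := by
      have := min_le_right r1 r2
      have := lt_min hr1 hr2
      linarith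
    have hunit : ∀ h, φ h = 0 → ‖h‖ < R → ‖e₀ + h‖ = 1 := by
      intro h hh hn
      rw [hb1 _ (by rw [add_sub_cancel_left]; linarith), map_add, hh, hφe, add_zero]
    have hconeφ : ∀ h, ‖h‖ < R → Cone φ (e₀ + h) := by
      intro h hn
      exact Cone.of_near hb1 (by rw [add_sub_cancel_left]; linarith)
    have hconeθ : ∀ h, φ h = 0 → ‖h‖ < R → Cone θ (f (e₀ + h)) := by
      intro h hh hn
      exact Cone.of_near hb2 (by
        rw [H.iso _ _ (hunit h hh hn) he₀, add_sub_cancel_left]; linarith)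
    -- choose a good base point
    have hex : ∃ h, φ h = 0 ∧ ‖h‖ < R ∧ ψ (e₀ + h) ≠ 0 := by
      by_contra hcon
      push Not at hcon
      have h0 : ψ e₀ = 0 := by
        have := hcon 0 (map_zero _) (by simpa using hR0)
        simpa using this
      have hv : ∀ h, φ h = 0 → ψ h = 0 := fun h hh =>
        vanish_of_small hR0 (fun h hh hn => by
          have := hcon h hh hn
          rwa [map_add, h0, zero_add] at this) hh
      have := decompose_of_vanish hφe hv p
      rw [h0, mul_zero, hψp] at this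
      exact one_ne_zero this
    obtain ⟨h, hh, hn, hne⟩ := hex
    set e := e₀ + h with he
    have hen : ‖e‖ = 1 := hunit h hh hn
    have hφ' : Cone φ e := hconeφ h hn
    have hθ' : Cone θ (f e) := hconeθ h hh hn
    set t := rp / 2 with ht
    have ht0 : 0 < t := by positivity
    have hte : ‖t • e‖ < rp := by
      rw [norm_smul, hen, mul_one, Real.norm_of_nonneg ht0.le, ht]; linarith
    rcases lt_or_gt_of_ne hne with hneg | hpos
    · -- use `-p`
      have h1 : ‖p + t • e‖ = ψ (p + t • e) := hbp _ (by rw [add_sub_cancel_left]; exact hte)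
      rw [map_add, map_smul, smul_eq_mul, hψp] at h1
      have h2 : ‖-p - t • e‖ < 1 := by
        have e1 : -p - t • e = -(p + t • e) := by abel
        rw [e1, norm_neg, h1]
        have : t * ψ e < 0 := mul_neg_of_pos_of_neg ht0 hneg
        linarith
      have h3 := H.value_on_D hd hen hφ' hθ' (p := -p) (by rwa [norm_neg]) ht0 h2
      rw [H.oddf p hp, map_neg, map_neg] at h3
      linarith
    · have h1 : ‖p - t • e‖ = ψ (p - t • e) := hbp _ (by
        rw [sub_sub_cancel_left, norm_neg]; exact hte)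
      rw [map_sub, map_smul, smul_eq_mul, hψp] at h1
      have h2 : ‖p - t • e‖ < 1 := by
        rw [h1]
        have : 0 < t * ψ e := mul_pos ht0 hpos
        linarith
      exact H.value_on_D hd hen hφ' hθ' hp ht0 h2
  -- density and continuity
  have hall : ∀ ε : ℝ, 0 < ε → |θ (f x) - φ x| ≤ ε := by
    intro ε hε
    obtain ⟨p, hp, hpx, ψ, hψ⟩ := hd x hx (ε / 2) (by positivity)
    have h1 := hflat p hp ψ hψ
    have h2 := hθabs (f p - f x)
    rw [H.iso p x hp hx, map_sub] at h2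
    have h3 := hφabs (p - x)
    rw [map_sub] at h3
    have e1 : θ (f x) - φ x = -(θ (f p) - θ (f x)) + (φ p - φ x) := by rw [h1]; ring
    rw [e1]
    refine (abs_add_le _ _).trans ?_
    rw [abs_neg]
    linarith
  have h0 : |θ (f x) - φ x| ≤ 0 := le_of_forall_pos_le_add (fun ε hε => by simpa using hall ε hε)
  have h1 := abs_nonpos_iff.1 h0
  linarith

/-- **Main theorem for pairs.** -/
theorem Pair.extends (H : Pair f g) (hd : FlatDense X) :
    ∃ T : X ≃ₗᵢ[ℝ] Y, ∀ x, ‖x‖ = 1 → T x = f x := by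
  let T : X → Y := fun x => ‖x‖ • f (‖x‖⁻¹ • x)
  -- all functionals
  have hval : ∀ (e₀ : X) (φ : X →L[ℝ] ℝ) (θ : Y →L[ℝ] ℝ), ‖e₀‖ = 1 → Cone φ e₀ → Cone θ (f e₀) →
      ∀ x, θ (T x) = φ x := by
    intro e₀ φ θ he₀ hφ hθ x
    by_cases hx : x = 0
    · simp [T, hx]
    have hn : 0 < ‖x‖ := norm_pos_iff.2 hx
    show θ (‖x‖ • f (‖x‖⁻¹ • x)) = φ x
    rw [map_smul, smul_eq_mul, H.value hd he₀ hφ hθ (norm_normalize hx), map_smul, smul_eq_mul]
    field_simp
  -- separation
  have hsep : ∀ v : Y, (∀ (e₀ : X) (φ : X →L[ℝ] ℝ) (θ : Y →L[ℝ] ℝ), ‖e₀‖ = 1 → Cone φ e₀ →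
      Cone θ (f e₀) → θ v = 0) → v = 0 := by
    intro v hv
    by_contra hv0
    have hvn : 0 < ‖v‖ := norm_pos_iff.2 hv0
    have hun := norm_normalize hv0
    set w := ‖v‖⁻¹ • v with hw
    obtain ⟨e₀, he₀, hnear, φ, hφ⟩ := hd (g w) (H.ng w hun) (1 / 2) (by norm_num)
    obtain ⟨θ, hθ⟩ := H.transfer he₀ hφ
    have h1 := hv e₀ φ θ he₀ hφ hθ
    have h2 : θ (f e₀) = 1 := by rw [← hθ.eq, H.nf e₀ he₀]
    have h3 := hθ.abs_bound (f e₀ - w)
    have h4 : ‖f e₀ - w‖ = ‖e₀ - g w‖ := by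
      have := H.iso e₀ (g w) he₀ (H.ng w hun)
      rwa [H.fg w hun] at this
    rw [h4, map_sub, h2] at h3
    have h5 : θ w = 0 := by
      rw [hw, map_smul, h1, smul_zero]
    rw [h5, sub_zero, abs_one] at h3
    linarith
  have hT1 : ∀ x, ‖x‖ = 1 → T x = f x := by
    intro x hx
    show ‖x‖ • f (‖x‖⁻¹ • x) = f x
    rw [hx]
    simp
  have hadd : ∀ x y, T (x + y) = T x + T y := by
    intro x y
    have : T (x + y) - (T x + T y) = 0 := hsep _ (fun e₀ φ θ he₀ hφ hθ => by
      rw [map_sub, map_add, hval e₀ φ θ he₀ hφ hθ, hval e₀ φ θ he₀ hφ hθ,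
        hval e₀ φ θ he₀ hφ hθ, map_add, sub_self])
    exact sub_eq_zero.1 this
  have hsmul : ∀ (c : ℝ) x, T (c • x) = c • T x := by
    intro c x
    have : T (c • x) - c • T x = 0 := hsep _ (fun e₀ φ θ he₀ hφ hθ => by
      rw [map_sub, hval e₀ φ θ he₀ hφ hθ, map_smul, map_smul, hval e₀ φ θ he₀ hφ hθ, sub_self])
    exact sub_eq_zero.1 this
  have hnorm : ∀ x, ‖T x‖ = ‖x‖ := by
    intro x
    by_cases hx : x = 0
    · simp [T, hx]
    show ‖‖x‖ • f (‖x‖⁻¹ • x)‖ = ‖x‖
    rw [norm_smul, H.nf _ (norm_normalize hx), norm_norm, mul_one]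
  let L : X →ₗᵢ[ℝ] Y := ⟨⟨⟨T, hadd⟩, hsmul⟩, hnorm⟩
  have hsurj : Function.Surjective L := by
    intro y
    by_cases hy : y = 0
    · exact ⟨0, by
        show T 0 = y
        simp [T, hy]⟩
    have hyn : 0 < ‖y‖ := norm_pos_iff.2 hy
    have hun := norm_normalize hy
    refine ⟨‖y‖ • g (‖y‖⁻¹ • y), ?_⟩
    show T (‖y‖ • g (‖y‖⁻¹ • y)) = y
    rw [hsmul, hT1 _ (H.ng _ hun), H.fg _ hun, smul_smul, mul_inv_cancel₀ hyn.ne', one_smul]
  exact ⟨LinearIsometryEquiv.ofSurjective L hsurj, fun x hx => hT1 x hx⟩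

end Vale.Agent.Lib.P084.Flat
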