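/-
Tingley's problem for spaces with dense flat points; spheres covered by countably many hyperplanes.
-/
import Vale.Agent.Lib.P084.Flat.Main
import Vale.Agent.Lib.P084.Inf.Cofacial

set_option linter.unusedSectionVars false

namespace Vale.Agent.Lib.P084.Flat

open Set Metric
open Vale.Agent.Lib.P084.UC

variable {X : Type*} {Y : Type*} [NormedAddCommGroup X] [NormedSpace ℝ X] [NormedAddCommGroup Y]
  [NormedSpace ℝ Y]

theorem exists_pair {f : X → Y} (hf : IsSphereIso f) : ∃ g : Y → X, Pair f g := by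
  classical
  have hinv : ∀ y : Y, ∃ x : X, ‖y‖ = 1 → ‖x‖ = 1 ∧ f x = y := by
    intro y
    by_cases hy : ‖y‖ = 1
    · obtain ⟨x, hx, hfx⟩ := hf.surj y hy
      exact ⟨x, fun _ => ⟨hx, hfx⟩⟩
    · exact ⟨0, fun h => absurd h hy⟩
  choose g hg using hinv
  refine ⟨g, ⟨hf.norm_eq, fun y hy => (hg y hy).1, hf.iso, fun x hx => ?_, fun y hy => (hg y hy).2,
    fun x hx => Vale.Agent.Lib.P084.Inf.odd_of_isSphereIso hf hx⟩⟩
  obtain ⟨h1, h2⟩ := hg (f x) (hf.norm_eq x hx)
  have h3 := hf.iso _ _ h1 hx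
  rw [h2, sub_self, norm_zero] at h3
  exact sub_eq_zero.1 (norm_eq_zero.1 h3.symm)

theorem extends_source {f : X → Y} (hf : IsSphereIso f) (hd : FlatDense X) :
    ∃ T : X ≃ₗᵢ[ℝ] Y, ∀ x, ‖x‖ = 1 → T x = f x := by
  obtain ⟨g, H⟩ := exists_pair hf
  exact H.extends hd

theorem extends_target {f : X → Y} (hf : IsSphereIso f) (hd : FlatDense Y) :
    ∃ T : X ≃ₗᵢ[ℝ] Y, ∀ x, ‖x‖ = 1 → T x = f x := by
  obtain ⟨g, H⟩ := exists_pair hf
  obtain ⟨T, hT⟩ := H.symm.extends hd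
  refine ⟨T.symm, fun x hx => ?_⟩
  rw [LinearIsometryEquiv.symm_apply_eq, hT _ (H.nf x hx), H.gf x hx]

/-- The ambient form of a map of the unit spheres. -/
theorem exists_ambient_map (f : sphere (0 : X) 1 → sphere (0 : Y) 1) (hf : Isometry f)
    (hs : Function.Surjective f) :
    ∃ g : X → Y, IsSphereIso g ∧ ∀ x : sphere (0 : X) 1, g x = f x := by
  classical
  have hmemX : ∀ a : X, ‖a‖ = 1 → a ∈ sphere (0 : X) 1 := fun a ha => mem_sphere_zero_iff_norm.2 ha
  have hmemY : ∀ y : Y, ‖y‖ = 1 → y ∈ sphere (0 : Y) 1 := fun y hy => mem_sphere_zero_iff_norm.2 hy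
  have hnormX : ∀ a : sphere (0 : X) 1, ‖(a : X)‖ = 1 := fun a => mem_sphere_zero_iff_norm.1 a.2
  have hnormY : ∀ y : sphere (0 : Y) 1, ‖(y : Y)‖ = 1 := fun y => mem_sphere_zero_iff_norm.1 y.2
  let g : X → Y := fun a => if h : ‖a‖ = 1 then (f ⟨a, hmemX a h⟩ : Y) else 0
  have hgv : ∀ a (h : ‖a‖ = 1), g a = f ⟨a, hmemX a h⟩ := fun a h => by simp [g, h]
  have hfdist : ∀ a b : sphere (0 : X) 1, ‖(f a : Y) - f b‖ = ‖(a : X) - b‖ := by
    intro a b
    have := hf.dist_eq a b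
    simpa [Subtype.dist_eq, dist_eq_norm] using this
  refine ⟨g, ⟨fun a ha => ?_, fun a b ha hb => ?_, fun y hy => ?_⟩, fun x => ?_⟩
  · rw [hgv a ha]; exact hnormY _
  · rw [hgv a ha, hgv b hb, hfdist]
  · obtain ⟨a, ha⟩ := hs ⟨y, hmemY y hy⟩
    refine ⟨a, hnormX a, ?_⟩
    rw [hgv a (hnormX a)]
    simp [ha]
  · rw [hgv x (hnormX x)]

/-- **Main theorem.**  If the flat points are dense in the unit sphere of `X` or of `Y`, every surjective
isometry of the unit spheres is the restriction of a surjective linear isometry. -/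
theorem sphere_extends (f : sphere (0 : X) 1 → sphere (0 : Y) 1) (hf : Isometry f)
    (hs : Function.Surjective f) (hd : FlatDense X ∨ FlatDense Y) :
    ∃ T : X ≃ₗᵢ[ℝ] Y, ∀ x : sphere (0 : X) 1, T x = f x := by
  obtain ⟨g, hg, hgf⟩ := exists_ambient_map f hf hs
  obtain ⟨T, hT⟩ : ∃ T : X ≃ₗᵢ[ℝ] Y, ∀ x, ‖x‖ = 1 → T x = g x := by
    rcases hd with hd | hd
    · exact extends_source hg hd
    · exact extends_target hg hd
  exact ⟨T, fun x => by rw [hT _ (mem_sphere_zero_iff_norm.1 x.2), hgf]⟩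

/-- **Countably many hyperplanes.**  If the unit sphere of a Banach space is covered by countably many
closed hyperplanes `{φ_n = 1}`, the flat points are dense. -/
theorem flatDense_of_countable [CompleteSpace X] (φ : ℕ → X →L[ℝ] ℝ)
    (hb : ∀ x : X, ‖x‖ = 1 → ∃ n, φ n x = 1) : FlatDense X := by
  intro x hx ε hε
  let S := sphere (0 : X) 1
  have hcl : IsClosed S := isClosed_sphere
  have : CompleteSpace S := hcl.completeSpace_coe
  let A : ℕ → Set S := fun n => {u | φ n (u : X) = 1}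
  have hA : ∀ n, IsClosed (A n) := fun n =>
    isClosed_eq ((φ n).continuous.comp continuous_subtype_val) continuous_const
  have hU : ⋃ n, A n = univ := by
    refine eq_univ_of_forall fun u => ?_
    obtain ⟨n, hn⟩ := hb u (mem_sphere_zero_iff_norm.1 u.2)
    exact mem_iUnion.2 ⟨n, hn⟩
  have hdense := dense_iUnion_interior_of_closed hA hU
  have hxS : x ∈ S := mem_sphere_zero_iff_norm.2 hx
  obtain ⟨u, hu, hdist⟩ := hdense.exists_dist_lt (⟨x, hxS⟩ : S) hε
  obtain ⟨n, hn⟩ := mem_iUnion.1 hu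
  obtain ⟨δ, hδ, hball⟩ := Metric.mem_nhds_iff.1 (mem_interior_iff_mem_nhds.1 hn)
  have hun : ‖(u : X)‖ = 1 := mem_sphere_zero_iff_norm.1 u.2
  refine ⟨u, hun, ?_, φ n, min (δ / 2) (1 / 2), by positivity, fun y hy => ?_⟩
  · rw [Subtype.dist_eq, dist_eq_norm, norm_sub_rev] at hdist
    exact hdist
  · have hy1 : ‖y - (u : X)‖ < δ / 2 := hy.trans_le (min_le_left _ _)
    have hy2 : ‖y - (u : X)‖ < 1 / 2 := hy.trans_le (min_le_right _ _)
    have hyn := lower_norm hun hy2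
    have hy0 : y ≠ 0 := by
      intro h; rw [h, norm_zero] at hyn; norm_num at hyn
    have hw := norm_normalize hy0
    have hnear := normalize_near hun hy0
    have hmem : (⟨‖y‖⁻¹ • y, mem_sphere_zero_iff_norm.2 hw⟩ : S) ∈ ball u δ := by
      rw [Metric.mem_ball, Subtype.dist_eq, dist_eq_norm]
      show ‖‖y‖⁻¹ • y - (u : X)‖ < δ
      linarith
    have h1 : φ n (‖y‖⁻¹ • y) = 1 := hball hmem
    rw [map_smul, smul_eq_mul] at h1
    have hn0 : ‖y‖ ≠ 0 := norm_ne_zero_iff.2 hy0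
    field_simp at h1
    linarith

end Vale.Agent.Lib.P084.Flat
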