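/-
Locally finitely polyhedral spaces have dense flat points: near every unit vector the norm is the
maximum of finitely many functionals, so on a smaller ball one of them coincides with the norm.
-/
import Vale.Agent.Lib.P084.Flat.Top
import Vale.Agent.Lib.P084.LFP.Defs

namespace Vale.Agent.Lib.P084.Flat

open Vale.Agent.Lib.P084.LFP
open Metric

variable {X : Type*} [NormedAddCommGroup X] [NormedSpace ℝ X]

/-- Finite Baire: if finitely many functionals have the property that at each point of an open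
ball one of them coincides with the norm, then one of them coincides with the norm on a smaller ball. -/
theorem exists_ball_of_finset (Θ : Finset (X →L[ℝ] ℝ)) :
    ∀ (y : X) (r : ℝ), 0 < r → (∀ w, ‖w - y‖ < r → ∃ θ ∈ Θ, θ w = ‖w‖) →
      ∃ (θ : X →L[ℝ] ℝ) (y' : X) (r' : ℝ), θ ∈ Θ ∧ 0 < r' ∧ ‖y' - y‖ < r ∧
        ∀ w, ‖w - y'‖ < r' → θ w = ‖w‖ := by
  classical
  induction Θ using Finset.induction_on with
  | empty =>
    intro y r hr h
    obtain ⟨θ, hθ, -⟩ := h y (by simpa using hr)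
    simp at hθ
  | insert a s ha ih =>
    intro y r hr h
    by_cases hall : ∀ w, ‖w - y‖ < r → a w = ‖w‖
    · exact ⟨a, y, r, Finset.mem_insert_self _ _, hr, by simpa using hr, hall⟩
    · push Not at hall
      obtain ⟨w₀, hw₀, hne⟩ := hall
      -- near `w₀` the functional `a` differs from the norm
      have hopen : IsOpen {w : X | a w ≠ ‖w‖ ∧ ‖w - y‖ < r} := by
        apply IsOpen.inter
        · exact isOpen_ne_fun a.continuous continuous_norm
        · exact isOpen_lt (f := fun w : X => ‖w - y‖) (by fun_prop) continuous_const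
      obtain ⟨ρ, hρ, hball⟩ := Metric.isOpen_iff.1 hopen w₀ ⟨hne, hw₀⟩
      have hsub : ∀ w, ‖w - w₀‖ < ρ → a w ≠ ‖w‖ ∧ ‖w - y‖ < r := by
        intro w hw
        exact hball (by simpa [dist_eq_norm] using hw)
      obtain ⟨θ, y', r', hθ, hr', hy', hon⟩ := ih w₀ ρ hρ (fun w hw => by
        obtain ⟨h1, h2⟩ := hsub w hw
        obtain ⟨θ, hθ, hθw⟩ := h w h2
        rcases Finset.mem_insert.1 hθ with rfl | hs
        · exact absurd hθw h1
        · exact ⟨θ, hs, hθw⟩)
      exact ⟨θ, y', r', Finset.mem_insert_of_mem hθ, hr', (hsub y' hy').2, hon⟩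

/-- Locally finitely polyhedral spaces have dense flat points. -/
theorem flatDense_of_locFinPoly (h : LocFinPoly X) : FlatDense X := by
  intro x hx ε hε
  obtain ⟨Θ, ρ, hρ, hΘ⟩ := h x hx
  set r := min ρ (min (ε / 4) (1 / 2)) with hr
  have hr0 : 0 < r := by positivity
  have hrρ : r ≤ ρ := min_le_left _ _
  have hrε : r ≤ ε / 4 := (min_le_right _ _).trans (min_le_left _ _)
  have hr2 : r ≤ 1 / 2 := (min_le_right _ _).trans (min_le_right _ _)
  obtain ⟨θ, y, s, hθ, hs, hy, hon⟩ := exists_ball_of_finset Θ x r hr0 (fun w hw =>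
    (hΘ w (lt_of_lt_of_le hw hrρ)).2)
  have hyn : |‖y‖ - 1| ≤ ‖y - x‖ := by
    have := abs_norm_sub_norm_le y x
    rwa [hx] at this
  have hy0 : 0 < ‖y‖ := by
    have := (abs_le.1 hyn).1
    linarith
  set p := ‖y‖⁻¹ • y with hp
  have hp1 : ‖p‖ = 1 := by
    rw [hp, norm_smul, norm_inv, norm_norm, inv_mul_cancel₀ hy0.ne']
  have hpy : ‖p - y‖ ≤ ‖y - x‖ := by
    have e1 : p - y = (‖y‖⁻¹ - 1) • y := by rw [hp, sub_smul, one_smul]
    rw [e1, norm_smul, Real.norm_eq_abs]
    have e2 : |‖y‖⁻¹ - 1| * ‖y‖ = |1 - ‖y‖| := by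
      have e3 : ‖y‖⁻¹ - 1 = (1 - ‖y‖) * ‖y‖⁻¹ := by
        rw [sub_mul, one_mul, mul_inv_cancel₀ hy0.ne']
      rw [e3, abs_mul, abs_of_pos (inv_pos.2 hy0), mul_assoc, inv_mul_cancel₀ hy0.ne', mul_one]
    rw [e2, abs_sub_comm]
    exact hyn
  have hyp : ‖y‖ • p = y := by
    rw [hp, smul_smul, mul_inv_cancel₀ hy0.ne', one_smul]
  refine ⟨p, hp1, ?_, θ, s / ‖y‖, by positivity, fun z hz => ?_⟩
  · have := norm_add_le (p - y) (y - x)
    rw [sub_add_sub_cancel] at this
    linarith
  · have h1 : ‖‖y‖ • z - y‖ < s := by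
      have e1 : ‖y‖ • z - y = ‖y‖ • (z - p) := by
        rw [smul_sub, hyp]
      rw [e1, norm_smul, norm_norm]
      rw [lt_div_iff₀ hy0] at hz
      linarith
    have h2 := hon _ h1
    rw [map_smul, norm_smul, norm_norm, smul_eq_mul] at h2
    exact (mul_left_cancel₀ hy0.ne' h2).symm

end Vale.Agent.Lib.P084.Flat
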