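/-
Spaces with dense flat points: norms that are locally piecewise linear with finitely many pieces, and
all linear subspaces of `c_0(Γ)`.
-/
import Vale.Agent.Lib.P084.Flat.Top

set_option linter.unusedSectionVars false

namespace Vale.Agent.Lib.P084.Flat

open Set Metric

variable {X : Type*} [NormedAddCommGroup X] [NormedSpace ℝ X]

/-- Near each unit vector, at each point the norm equals one of finitely many linear functionals. -/
def PiecewiseLinear (X : Type*) [NormedAddCommGroup X] [NormedSpace ℝ X] : Prop :=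
  ∀ x : X, ‖x‖ = 1 → ∃ (r : ℝ) (Ψ : Finset (X →L[ℝ] ℝ)), 0 < r ∧
    ∀ y, ‖y - x‖ < r → ∃ ψ ∈ Ψ, ψ y = ‖y‖

/-- `X` is isometric to a linear subspace of `c_0(Γ)`: the family `Φ` of functionals (the coordinates
`Γ = Φ`) has `|χ x| ≤ ‖x‖`, every unit vector has a coordinate of modulus one, and for each `x`, `ε > 0`
only finitely many coordinates have modulus at least `ε`. -/
def IsSubC0 (X : Type*) [NormedAddCommGroup X] [NormedSpace ℝ X] : Prop :=
  ∃ Φ : Set (X →L[ℝ] ℝ), (∀ χ ∈ Φ, ∀ x, |χ x| ≤ ‖x‖) ∧ (∀ x : X, ‖x‖ = 1 → ∃ χ ∈ Φ, |χ x| = 1) ∧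
    ∀ (x : X) (ε : ℝ), 0 < ε → {χ ∈ Φ | ε ≤ |χ x|}.Finite

theorem exists_cone_of_finset (Ψ : Finset (X →L[ℝ] ℝ)) :
    ∀ (x : X) (r : ℝ), 0 < r → (∀ y, ‖y - x‖ < r → ∃ ψ ∈ Ψ, ψ y = ‖y‖) →
      ∃ (ψ : X →L[ℝ] ℝ) (y₀ : X), ‖y₀ - x‖ < r ∧ Cone ψ y₀ := by
  classical
  induction Ψ using Finset.induction_on with
  | empty =>
    intro x r hr h
    obtain ⟨ψ, hψ, -⟩ := h x (by simpa using hr)
    simp at hψ
  | insert ψ₁ Ψ' _ ih =>
    intro x r hr h
    by_cases hall : ∀ y, ‖y - x‖ < r → ψ₁ y = ‖y‖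
    · exact ⟨ψ₁, x, by simpa using hr, r, hr, fun z hz => (hall z hz).symm⟩
    · push Not at hall
      obtain ⟨y₁, hy₁, hne⟩ := hall
      -- a ball on which `ψ₁` is not the norm
      have hcont : Continuous fun y : X => ψ₁ y - ‖y‖ := ψ₁.continuous.sub continuous_norm
      have hopen : IsOpen {y : X | ψ₁ y - ‖y‖ ≠ 0} := isOpen_ne_fun hcont continuous_const
      have hmem : y₁ ∈ {y : X | ψ₁ y - ‖y‖ ≠ 0} := sub_ne_zero.2 hne
      obtain ⟨r₁, hr₁, hb₁⟩ := Metric.isOpen_iff.1 hopen y₁ hmem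
      set r₂ := min r₁ (r - ‖y₁ - x‖) with hr₂
      have hr₂0 : 0 < r₂ := lt_min hr₁ (by linarith)
      have hsub : ∀ y, ‖y - y₁‖ < r₂ → ‖y - x‖ < r := by
        intro y hy
        have e : y - x = (y - y₁) + (y₁ - x) := by abel
        rw [e]
        have h1 : ‖y - y₁‖ < r - ‖y₁ - x‖ := hy.trans_le (min_le_right _ _)
        exact (norm_add_le _ _).trans_lt (by linarith)
      obtain ⟨ψ, y₀, hy₀, hc⟩ := ih y₁ r₂ hr₂0 (fun y hy => by
        obtain ⟨ψ, hψ, hv⟩ := h y (hsub y hy)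
        rcases Finset.mem_insert.1 hψ with heq | hψ'
        · exfalso
          rw [heq] at hv
          have h1 : y ∈ {y : X | ψ₁ y - ‖y‖ ≠ 0} := hb₁ (by
            rw [Metric.mem_ball, dist_eq_norm]
            exact hy.trans_le (min_le_left _ _))
          exact h1 (sub_eq_zero.2 hv)
        · exact ⟨ψ, hψ', hv⟩)
      exact ⟨ψ, y₀, hsub y₀ hy₀, hc⟩

/-- Locally piecewise linear norms have dense flat points. -/
theorem flatDense_of_piecewise (h : PiecewiseLinear X) : FlatDense X := by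
  intro x hx ε hε
  obtain ⟨r, Ψ, hr, hP⟩ := h x hx
  set δ := min r (min (ε / 3) (1 / 2)) with hδ
  have hδ0 : 0 < δ := lt_min hr (lt_min (by positivity) (by norm_num))
  obtain ⟨ψ, y₀, hy₀, hc⟩ := exists_cone_of_finset Ψ x δ hδ0 (fun y hy =>
    hP y (hy.trans_le (min_le_left _ _)))
  have h1 : ‖y₀ - x‖ < ε / 3 := hy₀.trans_le ((min_le_right _ _).trans (min_le_left _ _))
  have h2 : ‖y₀ - x‖ < 1 / 2 := hy₀.trans_le ((min_le_right _ _).trans (min_le_right _ _))
  have hn := lower_norm hx h2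
  have hy0 : y₀ ≠ 0 := by
    intro h0; rw [h0, norm_zero] at hn; norm_num at hn
  have hnear := normalize_near hx hy0
  refine ⟨‖y₀‖⁻¹ • y₀, norm_normalize hy0, by linarith, ψ, hc.smul (by positivity)⟩

/-- Linear subspaces of `c_0(Γ)` have locally piecewise linear norm. -/
theorem piecewise_of_subC0 (h : IsSubC0 X) : PiecewiseLinear X := by
  classical
  obtain ⟨Φ, h1, h2, h3⟩ := h
  intro x hx
  have hfin := h3 x (1 / 2) (by norm_num)
  set A := hfin.toFinset with hA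
  refine ⟨1 / 8, A ∪ A.image (fun χ => -χ), by norm_num, fun y hy => ?_⟩
  have hn := lower_norm hx (by linarith : ‖y - x‖ < 1 / 2)
  have hy0 : y ≠ 0 := by
    intro h0; rw [h0, norm_zero] at hn; norm_num at hn
  have hny : 7 / 8 ≤ ‖y‖ := by
    have h4 := norm_sub_le y (y - x)
    rw [sub_sub_cancel, hx] at h4
    linarith
  obtain ⟨χ, hχ, hv⟩ := h2 (‖y‖⁻¹ • y) (norm_normalize hy0)
  rw [map_smul, smul_eq_mul, abs_mul, abs_of_pos (by positivity : 0 < ‖y‖⁻¹)] at hv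
  have hny0 : ‖y‖ ≠ 0 := norm_ne_zero_iff.2 hy0
  have hv2 : |χ y| = ‖y‖ := by
    field_simp at hv
    linarith
  have hbd : 1 / 2 ≤ |χ x| := by
    have h4 := h1 χ hχ (y - x)
    rw [map_sub] at h4
    have h5 : |χ y| ≤ |χ x| + |χ y - χ x| := by
      have := abs_add_le (χ x) (χ y - χ x)
      rwa [add_sub_cancel] at this
    linarith
  have hmem : χ ∈ A := by
    rw [hA, Set.Finite.mem_toFinset]
    exact ⟨hχ, hbd⟩
  rcases abs_cases (χ y) with ⟨h6, -⟩ | ⟨h6, -⟩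
  · exact ⟨χ, Finset.mem_union_left _ hmem, by linarith⟩
  · refine ⟨-χ, Finset.mem_union_right _ (Finset.mem_image.2 ⟨χ, hmem, rfl⟩), ?_⟩
    show -(χ y) = ‖y‖
    linarith

theorem flatDense_of_subC0 (h : IsSubC0 X) : FlatDense X :=
  flatDense_of_piecewise (piecewise_of_subC0 h)

end Vale.Agent.Lib.P084.Flat
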